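import Vale.Agent.P176.Lower
import Vale.Agent.P176.Fin

/-!
P176.  The finitistic dimension conjecture is false: over every field of characteristic zero there
is a finite-dimensional algebra with finitely generated modules of finite but arbitrarily large
projective dimension.
-/

namespace Vale.Agent.Results.P176.FinitisticDisproof

open CategoryTheory Vale.Agent.P176

universe u

theorem result (K : Type u) [Field K] [CharZero K] :
    ∃ (A : Type u) (_ : Ring A) (_ : Algebra K A), Module.Finite K A ∧
      ∀ n : ℕ, ∃ M : ModuleCat.{u} A, Module.Finite A M ∧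
        (n : WithBot ℕ∞) ≤ projectiveDimension M ∧ projectiveDimension M ≠ ⊤ := by
  refine ⟨Alg K, inferInstance, inferInstance, alg_finite K, fun n => ⟨NN K (n + 1), ?_, ?_, ?_⟩⟩
  · exact Rep.finite_mod _
  · rw [projectiveDimension_ge_iff]
    intro h
    obtain ⟨e, he⟩ := ext_ne (K := K) n
    exact he (e.eq_zero_of_hasProjectiveDimensionLT n (by omega))
  · rw [projectiveDimension_ne_top_iff]
    obtain ⟨k, hk⟩ := exists_pd (K := K) (n + 1)
    exact ⟨k, hasProjectiveDimensionLT_of_ge _ k (k + 1) (by omega)⟩

end Vale.Agent.Results.P176.FinitisticDisproof
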